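import Vale.Agent.P183.Inv.Final
import Vale.Agent.P183.Mk7

/-!
# The lattice `N7` in table form
-/

namespace Vale.Agent.P183

theorem repTable_of_representable {L : Type} [Lattice L] {m : ℕ} {T : Fin m → Fin m → Bool}
    (e : Fin m ≃ L) (he : ∀ i j, T i j = true ↔ e i ≤ e j) (h : Representable L) :
    RepTable m T := by
  obtain ⟨A, ⟨f⟩⟩ := h
  exact ⟨A, e.trans f.toEquiv, fun i j => by rw [he]; exact (f.le_iff_le).symm⟩

/-- The listing `bot, j1, j2, k, m1, m2, top` of `N7`. -/
def n7Equiv : Fin 7 ≃ N7 where
  toFun := ![.bot, .j1, .j2, .k, .m1, .m2, .top]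
  invFun := fun x => match x with
    | .bot => 0 | .j1 => 1 | .j2 => 2 | .k => 3 | .m1 => 4 | .m2 => 5 | .top => 6
  left_inv := by decide
  right_inv := by decide

/-- The table with code 100 (entries `1 < 4`, `2 < 4`, `2 < 5` among the middle elements) is that
of `N7`, hence it is represented. -/
theorem repTable_N7 : RepTable 7 (mk7 (bitsOf 100)) :=
  repTable_of_representable n7Equiv (by decide) Inv.SL2.representable_N7

end Vale.Agent.P183
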