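import Vale.Agent.P183.Inv.SL2

/-!
# Basic facts on the field with 64 elements and on special matrices
-/

namespace Vale.Agent.P183.Inv

namespace F64

/-- A primitive element. -/
def zeta : F64 := ⟨2, by norm_num⟩
/-- A primitive cube root of unity, the 21st power of `zeta`. -/
def omega : F64 := ⟨59, by norm_num⟩
/-- An element of order nine, the 7th power of `zeta`. -/
def l9 : F64 := ⟨6, by norm_num⟩
/-- An element of order 21, the cube of `zeta`. -/
def l21 : F64 := ⟨8, by norm_num⟩

theorem zeta_ne : zeta ≠ 0 := by decide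
theorem omega_ne : omega ≠ 0 := by decide
theorem l9_ne : l9 ≠ 0 := by decide
theorem l21_ne : l21 ≠ 0 := by decide

theorem pow64 : ∀ x : F64, x ^ 64 = x := by decide +kernel

theorem pow63 (x : F64) (hx : x ≠ 0) : x ^ 63 = 1 := by
  have h := pow64 x
  have h2 : x * x ^ 63 = x * 1 := by rw [mul_one, ← pow_succ']; exact h
  exact mul_left_cancel₀ hx h2

theorem add_sq (x y : F64) : (x + y) ^ 2 = x ^ 2 + y ^ 2 := by
  linear_combination (x * y) * two_eq_zero

theorem add_pow4 (x y : F64) : (x + y) ^ 4 = x ^ 4 + y ^ 4 := by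
  have h : ∀ z : F64, z ^ 4 = (z ^ 2) ^ 2 := fun z => by ring
  rw [h, h x, h y, add_sq, add_sq]

theorem add_pow8 (x y : F64) : (x + y) ^ 8 = x ^ 8 + y ^ 8 := by
  have h : ∀ z : F64, z ^ 8 = (z ^ 4) ^ 2 := fun z => by ring
  rw [h, h x, h y, add_pow4, add_sq]

theorem eq_of_add_eq_zero {x y : F64} (h : x + y = 0) : x = y := by
  have : x = x + (y + y) := by rw [add_self, add_zero]
  rw [this, ← add_assoc, h, zero_add]

theorem add_eq_zero_iff' {x y : F64} : x + y = 0 ↔ x = y :=
  ⟨eq_of_add_eq_zero, fun h => h ▸ add_self x⟩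

theorem sq_inj {x y : F64} (h : x ^ 2 = y ^ 2) : x = y := by
  have h1 : (x + y) ^ 2 = 0 := by rw [add_sq, h, add_self]
  exact eq_of_add_eq_zero (pow_eq_zero_iff (by norm_num) |>.1 h1)

theorem omega_sq : omega ^ 2 = omega + 1 := by decide +kernel
theorem omega_cube : omega ^ 3 = 1 := by decide +kernel
theorem omega_inv : omega⁻¹ = omega + 1 := by decide +kernel
theorem omega_pow4 : omega ^ 4 = omega := by decide +kernel
theorem omega_pow8 : omega ^ 8 = omega + 1 := by decide +kernel

/-- The square root. -/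
def sqrt (x : F64) : F64 :=
  let x2 := x * x
  let x4 := x2 * x2
  let x8 := x4 * x4
  let x16 := x8 * x8
  x16 * x16

theorem sqrt_mul_self : ∀ x : F64, sqrt x * sqrt x = x := by decide +kernel

theorem sqrt_ne {x : F64} (hx : x ≠ 0) : sqrt x ≠ 0 := fun h => hx (by
  rw [← sqrt_mul_self x, h, mul_zero])

end F64

namespace SL2

open F64

theorem dg_congr {s t : F64} (h : s = t) (hs : s ≠ 0) (ht : t ≠ 0) : dg s hs = dg t ht := by
  subst h; rfl

theorem dg_mul (s t : F64) (hs : s ≠ 0) (ht : t ≠ 0) :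
    dg s hs * dg t ht = dg (s * t) (mul_ne_zero hs ht) :=
  ext' (by simp [dg]) (by simp [dg]) (by simp [dg]) (by simp [dg, mul_comm])

theorem dg_one : dg 1 one_ne_zero = 1 := ext' rfl rfl rfl (by simp [dg])

theorem dg_pow (t : F64) (ht : t ≠ 0) (k : ℕ) : dg t ht ^ k = dg (t ^ k) (pow_ne_zero k ht) := by
  induction k with
  | zero => rw [pow_zero]; exact (dg_one.symm.trans (dg_congr (pow_zero t).symm _ _))
  | succ n ih => rw [pow_succ, ih, dg_mul]; exact dg_congr (pow_succ t n).symm _ _

theorem dg_inv (t : F64) (ht : t ≠ 0) : (dg t ht)⁻¹ = dg t⁻¹ (inv_ne_zero ht) :=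
  ext' rfl rfl rfl (by simp [dg])

theorem dg_mul_ad_one (t : F64) (ht : t ≠ 0) : dg t ht * ad 1 one_ne_zero = ad t ht :=
  ext' (by simp [dg, ad]) (by simp [dg, ad]) (by simp [dg, ad]) (by simp [dg, ad])

theorem up_mul (s t : F64) : up s * up t = up (s + t) :=
  ext' (by simp [up]) (by simp [up, add_comm]) (by simp [up]) (by simp [up])

/-- Conjugating an upper unitriangular matrix by a diagonal one. -/
theorem dg_conj_up (s t : F64) (hs : s ≠ 0) : dg s hs * up t * (dg s hs)⁻¹ = up (s * s * t) :=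
  ext' (by simp [dg, up, hs]) (by simp [dg, up]; ring) (by simp [dg, up]) (by simp [dg, up, hs])

theorem ad_conj_up (t : F64) : ad 1 one_ne_zero * up t * ad 1 one_ne_zero = lo t :=
  ext' (by simp [ad, up, lo]) (by simp [ad, up, lo]) (by simp [ad, up, lo]) (by simp [ad, up, lo])

/-- A diagonal matrix is `dg` of its first entry. -/
theorem eq_dg (x : SL2) (hb : x.b = 0) (hc : x.c = 0) :
    ∃ h : x.a ≠ 0, x = dg x.a h := by
  have hd := x.det
  rw [hb, zero_mul, add_zero] at hd
  have ha : x.a ≠ 0 := fun h => by rw [h, zero_mul] at hd; exact zero_ne_one hd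
  exact ⟨ha, ext' rfl hb hc (eq_inv_of_mul_eq_one_right hd)⟩

/-- An antidiagonal matrix is `ad` of its second entry. -/
theorem eq_ad (x : SL2) (ha : x.a = 0) (hd : x.d = 0) :
    ∃ h : x.b ≠ 0, x = ad x.b h := by
  have hdet := x.det
  rw [ha, zero_mul, zero_add] at hdet
  have hb : x.b ≠ 0 := fun h => by rw [h, zero_mul] at hdet; exact zero_ne_one hdet
  exact ⟨hb, ext' ha rfl (eq_inv_of_mul_eq_one_right hdet) hd⟩

/-- The involution with given off diagonal entries. -/
def invol (b c : F64) : SL2 := ⟨sqrt (1 + b * c), b, c, sqrt (1 + b * c), by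
  rw [sqrt_mul_self, add_assoc, F64.add_self, add_zero]⟩

/-- Every element of order at most two has this shape. -/
theorem eq_invol (x : SL2) (h : x * x = 1) : x = invol x.b x.c := by
  have ha : x.a * x.a + x.b * x.c = 1 := congrArg SL2.a h
  have hb : x.a * x.b + x.b * x.d = 0 := congrArg SL2.b h
  have hc : x.c * x.a + x.d * x.c = 0 := congrArg SL2.c h
  have hd : x.c * x.b + x.d * x.d = 1 := congrArg SL2.d h
  have hdet := x.det
  have had : x.a = x.d := by
    by_contra hne
    have hs : x.a + x.d ≠ 0 := fun h0 => hne (eq_of_add_eq_zero h0)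
    have h1 : x.a * (x.a + x.d) = 0 := by
      linear_combination ha + hdet + (1 - x.b * x.c) * two_eq_zero
    have h2 : x.b * (x.a + x.d) = 0 := by linear_combination hb
    have h1' := (mul_eq_zero.1 h1).resolve_right hs
    have h2' := (mul_eq_zero.1 h2).resolve_right hs
    rw [h1', h2', zero_mul, zero_mul, add_zero] at hdet
    exact zero_ne_one hdet
  have hsq : x.a = sqrt (1 + x.b * x.c) := by
    apply sq_inj
    rw [pow_two, pow_two, sqrt_mul_self]
    linear_combination ha - (x.b * x.c) * two_eq_zero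
  exact ext' hsq rfl rfl (had ▸ hsq)

end SL2

end Vale.Agent.P183.Inv
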