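import Vale.Agent.P183.Inv.CertData

/-!
# The checker for the involution data
-/

namespace Vale.Agent.P183.Inv

namespace SL2

open F64

/-- The square of `omega`. -/
def omega2 : F64 := ⟨58, by norm_num⟩

/-- The six elements of the monomial group of order six. -/
def hh : Nat → SL2
  | 0 => 1
  | 1 => ⟨omega, 0, 0, omega2, by decide +kernel⟩
  | 2 => ⟨omega2, 0, 0, omega, by decide +kernel⟩
  | 3 => ⟨0, 1, 1, 0, by decide +kernel⟩
  | 4 => ⟨0, omega, omega2, 0, by decide +kernel⟩
  | _ => ⟨0, omega2, omega, 0, by decide +kernel⟩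

/-- Evaluate a packed word: each octal digit `k + 1` stands for the factor `hh k * t`. -/
def evalW (t : SL2) : Nat → Nat → SL2 → SL2
  | 0, _, acc => acc
  | n + 1, W, acc =>
    match Nat.mod W 8 with
    | 0 => acc
    | k + 1 => evalW t n (Nat.div W 8) (acc * hh k * t)

/-- The fixed involution generating `M2` together with the monomial group of order six. -/
def eM2 : SL2 := ⟨⟨23, by norm_num⟩, ⟨2, by norm_num⟩, ⟨12, by norm_num⟩, ⟨23, by norm_num⟩,
  by decide +kernel⟩

/-- Fourth power. -/
def p4 (x : F64) : F64 := let y := x * x; y * y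
/-- Eighth power. -/
def p8 (x : F64) : F64 := let y := p4 x; y * y
/-- Ninth power. -/
def p9 (x : F64) : F64 := p8 x * x
/-- Twenty first power. -/
def p21 (x : F64) : F64 := let y := p4 x; let z := p4 y; z * y * x

/-- The check for one involution. -/
def check (b c : F64) (w : Nat) : Bool :=
  let t := invol b c
  match Nat.mod w 8 with
  | 0 => decide (t.a = 0)
  | 4 => decide (p4 t.a = t.a) && decide (p4 b = b) && decide (p4 c = c) &&
      decide (evalW t 16 (Nat.mod (Nat.div w 8) 35184372088832) 1 = up 1)
  | 5 => decide (p8 t.a = t.a) && decide (p8 b = c) &&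
      decide (evalW t 16 (Nat.mod (Nat.div w 8) 35184372088832) 1 = eM2)
  | 6 =>
    let y := evalW t 16 (Nat.mod (Nat.div w 8) 35184372088832) 1
    let z := evalW t 16 (Nat.div w 281474976710656) 1
    decide (y.b = 0) && decide (y.c = 0) && !decide (p9 y.a = 1) && !decide (p21 y.a = 1) &&
      decide (z.c = 0) && !decide (z.b = 0)
  | 7 => decide (b = 0) && decide (c = 0)
  | _ => false

/-- The datum for a pair of codes. -/
def cert (b c : Nat) : Nat :=
  Nat.mod (Nat.shiftRight (certRows.getD b 0) (Nat.mul 72 c)) 4722366482869645213696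

theorem check_all : ((List.range 64).all fun b => (List.range 64).all fun c =>
    check (F64.ofNat b) (F64.ofNat c) (cert b c)) = true := by decide +kernel

end SL2

end Vale.Agent.P183.Inv
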