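import Vale.Agent.P183.Inv.Subs

/-!
# A matrix conjugating two involutions of the monomial group of order six into one of the six
subgroups lies in that subgroup
-/

namespace Vale.Agent.P183.Inv

namespace SL2

open F64

theorem conj_a (x : SL2) (m : F64) (hm : m ≠ 0) :
    (x * ad m hm * x⁻¹).a = m * (x.a * x.c) + m⁻¹ * (x.b * x.d) := by
  simp only [mul_a, mul_b, inv_a, inv_c, ad]; ring

theorem conj_b (x : SL2) (m : F64) (hm : m ≠ 0) :
    (x * ad m hm * x⁻¹).b = m * x.a ^ 2 + m⁻¹ * x.b ^ 2 := by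
  simp only [mul_a, mul_b, inv_b, inv_d, ad]; ring

theorem conj_c (x : SL2) (m : F64) (hm : m ≠ 0) :
    (x * ad m hm * x⁻¹).c = m * x.c ^ 2 + m⁻¹ * x.d ^ 2 := by
  simp only [mul_c, mul_d, inv_a, inv_c, ad]; ring

theorem conj_d (x : SL2) (m : F64) (hm : m ≠ 0) :
    (x * ad m hm * x⁻¹).d = m * (x.a * x.c) + m⁻¹ * (x.b * x.d) := by
  simp only [mul_c, mul_d, inv_b, inv_d, ad]; ring

theorem not_diag (x : SL2) (m : F64) (hm : m ≠ 0) (hb : m * x.a ^ 2 + m⁻¹ * x.b ^ 2 = 0)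
    (hc : m * x.c ^ 2 + m⁻¹ * x.d ^ 2 = 0) : False := by
  have h1 : x.b = m * x.a := by
    apply sq_inj
    have : m * (m * x.a ^ 2 + m⁻¹ * x.b ^ 2) = 0 := by rw [hb, mul_zero]
    rw [mul_add, ← mul_assoc m m⁻¹, mul_inv_cancel₀ hm, one_mul] at this
    rw [← eq_of_add_eq_zero this]; ring
  have h2 : x.d = m * x.c := by
    apply sq_inj
    have : m * (m * x.c ^ 2 + m⁻¹ * x.d ^ 2) = 0 := by rw [hc, mul_zero]
    rw [mul_add, ← mul_assoc m m⁻¹, mul_inv_cancel₀ hm, one_mul] at this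
    rw [← eq_of_add_eq_zero this]; ring
  have hdet := x.det
  rw [h1, h2] at hdet
  have : x.a * (m * x.c) + m * x.a * x.c = 0 := by
    linear_combination (m * x.a * x.c) * two_eq_zero
  rw [this] at hdet
  exact zero_ne_one hdet

theorem N_Mon (n : ℕ) (x : SL2) (h1 : x * ad 1 one_ne_zero * x⁻¹ ∈ Mon n)
    (h2 : x * ad omega omega_ne * x⁻¹ ∈ Mon n) : x ∈ Mon n := by
  rw [mem_Mon, conj_a, conj_b, conj_c, conj_d] at h1 h2
  rcases h1 with ⟨hb, hc, _⟩ | ⟨ha1, _, hb1⟩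
  · exact (not_diag x 1 one_ne_zero hb hc).elim
  rcases h2 with ⟨hb, hc, _⟩ | ⟨ha2, _, _⟩
  · exact (not_diag x omega omega_ne hb hc).elim
  rw [omega_inv] at ha2
  rw [inv_one, one_mul, one_mul] at ha1 hb1
  have hac : x.a * x.c = 0 := by
    linear_combination ha2 + (omega + 1) * ha1 - (omega * (x.a * x.c) + (omega + 1) * (x.b * x.d)) * two_eq_zero
  have hbd : x.b * x.d = 0 := by rw [hac, zero_add] at ha1; exact ha1
  have hdet := x.det
  have fin : ∀ t : F64, (t ^ 2) ^ n = 1 → t ^ n = 1 := fun t ht => by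
    apply sq_inj
    rw [one_pow, ← pow_mul, mul_comm, pow_mul]; exact ht
  rcases mul_eq_zero.1 hac with ha | hc
  · have hb0 : x.b ≠ 0 := fun h => by
      rw [ha, h, zero_mul, zero_mul, add_zero] at hdet; exact zero_ne_one hdet
    have hd := (mul_eq_zero.1 hbd).resolve_left hb0
    refine Or.inr ⟨ha, hd, fin _ ?_⟩
    rw [ha] at hb1
    simpa using hb1
  · have hd0 : x.d ≠ 0 := fun h => by
      rw [hc, h, mul_zero, mul_zero, add_zero] at hdet; exact zero_ne_one hdet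
    have hb := (mul_eq_zero.1 hbd).resolve_right hd0
    refine Or.inl ⟨hb, hc, fin _ ?_⟩
    rw [hb] at hb1
    simpa using hb1

theorem fix4_of_sq {t : F64} (h : (t ^ 2) ^ 4 = t ^ 2) : t ^ 4 = t := by
  apply sq_inj
  rw [← pow_mul, mul_comm, pow_mul]; exact h

theorem fix4_pair (p q : F64) (h1 : (p + q) ^ 4 = p + q)
    (h2 : (omega * p + (omega + 1) * q) ^ 4 = omega * p + (omega + 1) * q) :
    p ^ 4 = p ∧ q ^ 4 = q := by
  have ho : (omega + 1) ^ 4 = omega + 1 := by rw [add_pow4, omega_pow4, one_pow]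
  rw [add_pow4] at h1
  rw [add_pow4, mul_pow, mul_pow, omega_pow4, ho] at h2
  have hp : p ^ 4 = p := by
    linear_combination h2 + (omega + 1) * h1 - (omega * p ^ 4 + (omega + 1) * q ^ 4 - omega * p - (omega + 1) * q) * two_eq_zero
  refine ⟨hp, ?_⟩
  rw [hp] at h1
  exact add_left_cancel h1

theorem N_KK (x : SL2) (h1 : x * ad 1 one_ne_zero * x⁻¹ ∈ KK)
    (h2 : x * ad omega omega_ne * x⁻¹ ∈ KK) : x ∈ KK := by
  rw [mem_KK, conj_a, conj_b, conj_c, conj_d] at h1 h2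
  obtain ⟨_, hb1, hc1, _⟩ := h1
  obtain ⟨_, hb2, hc2, _⟩ := h2
  rw [omega_inv] at hb2 hc2
  rw [inv_one, one_mul, one_mul] at hb1 hc1
  obtain ⟨ha, hb⟩ := fix4_pair _ _ hb1 hb2
  obtain ⟨hc, hd⟩ := fix4_pair _ _ hc1 hc2
  exact ⟨fix4_of_sq ha, fix4_of_sq hb, fix4_of_sq hc, fix4_of_sq hd⟩

theorem N_M2 (x : SL2) (h1 : x * ad 1 one_ne_zero * x⁻¹ ∈ M2)
    (h2 : x * ad omega omega_ne * x⁻¹ ∈ M2) : x ∈ M2 := by
  rw [mem_M2, conj_a, conj_b, conj_c, conj_d] at h1 h2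
  obtain ⟨_, h1⟩ := h1
  obtain ⟨_, h2⟩ := h2
  have ho : (omega + 1) ^ 8 = omega := by
    rw [add_pow8, omega_pow8, one_pow, add_assoc, F64.add_self, add_zero]
  rw [omega_inv, add_pow8, mul_pow, mul_pow, omega_pow8, ho] at h2
  rw [inv_one, one_mul, one_mul, add_pow8] at h1
  have hA : x.d ^ 2 = (x.a ^ 8) ^ 2 := by
    linear_combination h2 + omega * h1 - (omega * x.c ^ 2 + omega * x.d ^ 2 - (omega + 1) * (x.a ^ 2) ^ 8 - omega * (x.b ^ 2) ^ 8 + (x.a ^ 2) ^ 8) * two_eq_zero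
  have hB : x.c ^ 2 = (x.b ^ 8) ^ 2 := by
    linear_combination h1 + hA - (x.d ^ 2 - (x.a ^ 2) ^ 8) * two_eq_zero
  exact ⟨sq_inj hA, sq_inj hB⟩

end SL2

end Vale.Agent.P183.Inv
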