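import Vale.Agent.P183.Inv.GenM2
import Vale.Agent.P183.Inv.NLemmas

/-!
# The subgroups containing the monomial group of order six
-/

namespace Vale.Agent.P183.Inv

namespace SL2

open F64

instance (n : ℕ) (x : SL2) : Decidable (x ∈ Mon n) := decidable_of_iff _ mem_Mon.symm
instance (x : SL2) : Decidable (x ∈ KK) := decidable_of_iff _ mem_KK.symm
instance (x : SL2) : Decidable (x ∈ M2) := decidable_of_iff _ mem_M2.symm

theorem torus_fact : ∀ t : F64, t = 0 ∨ t ^ 3 = 1 ∨ (t ^ 9 = 1 ∧ ∃ k : Fin 9, t ^ (k : ℕ) = l9) ∨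
    (t ^ 21 = 1 ∧ ∃ k : Fin 21, ∃ i : Fin 3, t ^ (k : ℕ) * omega ^ (i : ℕ) = l21) ∨
    ∃ k : Fin 63, t ^ (k : ℕ) = zeta := by decide +kernel

theorem gen21 : ∀ t : F64, t ^ 21 = 1 → ∃ k : Fin 21, t = l21 ^ (k : ℕ) := by decide +kernel

theorem gen63 : ∀ t : F64, t ^ 63 = 1 → ∃ k : Fin 63, t = zeta ^ (k : ℕ) := by decide +kernel

theorem ad_mul_ad_one (t : F64) (ht : t ≠ 0) : ad t ht * ad 1 one_ne_zero = dg t ht :=
  ext' (by simp [dg, ad]) (by simp [dg, ad]) (by simp [dg, ad]) (by simp [dg, ad])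

section

variable (X : Subgroup SL2) (hH : Mon 3 ≤ X)

include hH

theorem ad_one_mem : ad 1 one_ne_zero ∈ X := hH (ad_mem_Mon _ (one_pow 3))

theorem dg_omega_pow_mem (i : ℕ) : dg (omega ^ i) (pow_ne_zero i omega_ne) ∈ X :=
  hH (dg_mem_Mon _ (by rw [← pow_mul, mul_comm, pow_mul, omega_cube, one_pow]))

theorem of_zeta (h : dg zeta zeta_ne ∈ X) : dg l9 l9_ne ∈ X ∧ dg l21 l21_ne ∈ X := by
  constructor
  · have : dg l9 l9_ne = dg zeta zeta_ne ^ 7 := by decide +kernel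
    rw [this]; exact X.pow_mem h 7
  · have : dg l21 l21_ne = dg zeta zeta_ne ^ 3 := by decide +kernel
    rw [this]; exact X.pow_mem h 3

theorem zeta_of (h9 : dg l9 l9_ne ∈ X) (h21 : dg l21 l21_ne ∈ X) : dg zeta zeta_ne ∈ X := by
  have : dg zeta zeta_ne = dg l9 l9_ne * dg l21 l21_ne ^ 19 := by decide +kernel
  rw [this]; exact X.mul_mem h9 (X.pow_mem h21 19)

/-- What a diagonal element of `X` gives. -/
theorem torus (t : F64) (ht : t ≠ 0) (h : dg t ht ∈ X) :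
    t ^ 3 = 1 ∨ (t ^ 9 = 1 ∧ dg l9 l9_ne ∈ X) ∨ (t ^ 21 = 1 ∧ dg l21 l21_ne ∈ X) ∨
    dg zeta zeta_ne ∈ X := by
  rcases torus_fact t with h0 | h3 | ⟨h9, k, hk⟩ | ⟨h21, k, i, hk⟩ | ⟨k, hk⟩
  · exact absurd h0 ht
  · exact Or.inl h3
  · refine Or.inr (Or.inl ⟨h9, ?_⟩)
    rw [dg_congr hk.symm l9_ne (pow_ne_zero _ ht), ← dg_pow]
    exact X.pow_mem h _
  · refine Or.inr (Or.inr (Or.inl ⟨h21, ?_⟩))
    rw [dg_congr hk.symm l21_ne (mul_ne_zero (pow_ne_zero _ ht) (pow_ne_zero _ omega_ne)),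
      ← dg_mul _ _ (pow_ne_zero _ ht) (pow_ne_zero _ omega_ne), ← dg_pow t ht]
    exact X.mul_mem (X.pow_mem h _) (dg_omega_pow_mem X hH _)
  · refine Or.inr (Or.inr (Or.inr ?_))
    rw [dg_congr hk.symm zeta_ne (pow_ne_zero _ ht), ← dg_pow]
    exact X.pow_mem h _

theorem Mon63_le (h : dg zeta zeta_ne ∈ X) : Mon 63 ≤ X :=
  gen_Mon 63 zeta zeta_ne (fun t ht => let ⟨k, hk⟩ := gen63 t ht; ⟨k, hk⟩) X hH h

theorem Mon21_le (h : dg l21 l21_ne ∈ X) : Mon 21 ≤ X :=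
  gen_Mon 21 l21 l21_ne (fun t ht => let ⟨k, hk⟩ := gen21 t ht; ⟨k, hk⟩) X hH h

theorem Mon9_le (h : dg l9 l9_ne ∈ X) : Mon 9 ≤ X :=
  gen_Mon 9 l9 l9_ne (fun t ht => let ⟨k, hk⟩ := gen9 t ht; ⟨k, hk⟩) X hH h

theorem top_of (y : SL2) (hy : y ∈ X) (hb : y.b = 0) (hc : y.c = 0) (h9 : y.a ^ 9 ≠ 1)
    (h21 : y.a ^ 21 ≠ 1) (z : SL2) (hz : z ∈ X) (hzc : z.c = 0) (hzb : z.b ≠ 0) : X = ⊤ := by
  obtain ⟨ha, hyd⟩ := eq_dg y hb hc
  rw [hyd] at hy
  rcases torus X hH y.a ha hy with h3 | ⟨h, _⟩ | ⟨h, _⟩ | h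
  · exact absurd (by rw [show 9 = 3 * 3 by norm_num, pow_mul, h3, one_pow]) h9
  · exact absurd h h9
  · exact absurd h h21
  · exact gen_top X (Mon63_le X hH h) z hz hzc hzb

/-- The possible positions of an involution of `X`. -/
theorem invol_cases (s : SL2) (hs : s ∈ X) (h2 : s * s = 1) :
    s ∈ Mon 3 ∨ (s ∈ Mon 9 ∧ dg l9 l9_ne ∈ X) ∨ (s ∈ Mon 21 ∧ dg l21 l21_ne ∈ X) ∨
    (s ∈ Mon 63 ∧ dg zeta zeta_ne ∈ X) ∨ (s ∈ KK ∧ up 1 ∈ X) ∨ (s ∈ M2 ∧ eM2 ∈ X) ∨ X = ⊤ := by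
  have he := eq_invol s h2
  have hs' := hs
  rw [he] at hs'
  rcases inv_cert X hH s.b s.c hs' with ⟨hb, hc⟩ | ha | ⟨h, h'⟩ | ⟨h, h'⟩ |
    ⟨⟨y, hy, hb, hc, h9, h21⟩, z, hz, hzc, hzb⟩
  · left
    rw [he, hb, hc]
    decide +kernel
  · have ha' : s.a = 0 := by rw [he]; exact ha
    have hd' : s.d = 0 := by rw [he]; exact ha
    obtain ⟨hb, hsb⟩ := eq_ad s ha' hd'
    have hdg : dg s.b hb ∈ X := by
      rw [← ad_mul_ad_one, ← hsb]; exact X.mul_mem hs (ad_one_mem X hH)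
    rcases torus X hH s.b hb hdg with h3 | ⟨h, h'⟩ | ⟨h, h'⟩ | h
    · exact Or.inl (Or.inr ⟨ha', hd', h3⟩)
    · exact Or.inr (Or.inl ⟨Or.inr ⟨ha', hd', h⟩, h'⟩)
    · exact Or.inr (Or.inr (Or.inl ⟨Or.inr ⟨ha', hd', h⟩, h'⟩))
    · exact Or.inr (Or.inr (Or.inr (Or.inl ⟨Or.inr ⟨ha', hd', pow63 _ hb⟩, h⟩)))
  · exact Or.inr (Or.inr (Or.inr (Or.inr (Or.inl ⟨he ▸ h, h'⟩))))
  · exact Or.inr (Or.inr (Or.inr (Or.inr (Or.inr (Or.inl ⟨he ▸ h, h'⟩)))))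
  · exact Or.inr (Or.inr (Or.inr (Or.inr (Or.inr (Or.inr
      (top_of X hH y hy hb hc h9 h21 z hz hzc hzb))))))

/-- An involution of `X` outside the six proper subgroups forces `X` to be everything. -/
theorem top_of_invol (s : SL2) (hs : s ∈ X) (h2 : s * s = 1) (h63 : s ∉ Mon 63) (hK : s ∉ KK)
    (hM : s ∉ M2) : X = ⊤ := by
  rcases invol_cases X hH s hs h2 with h | ⟨h, _⟩ | ⟨h, _⟩ | ⟨h, _⟩ | ⟨h, _⟩ | ⟨h, _⟩ | h
  · exact absurd (Mon_le (by norm_num) h) h63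
  · exact absurd (Mon_le (by norm_num) h) h63
  · exact absurd (Mon_le (by norm_num) h) h63
  · exact absurd h h63
  · exact absurd h hK
  · exact absurd h hM
  · exact h

theorem top_of_K_9 (hK : up 1 ∈ X) (h9 : dg l9 l9_ne ∈ X) : X = ⊤ :=
  top_of_invol X hH (dg l9 l9_ne * up 1 * (dg l9 l9_ne)⁻¹)
    (X.mul_mem (X.mul_mem h9 hK) (X.inv_mem h9)) (by decide +kernel) (by decide +kernel)
    (by decide +kernel) (by decide +kernel)

theorem top_of_K_21 (hK : up 1 ∈ X) (h21 : dg l21 l21_ne ∈ X) : X = ⊤ :=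
  top_of_invol X hH (dg l21 l21_ne * up 1 * (dg l21 l21_ne)⁻¹)
    (X.mul_mem (X.mul_mem h21 hK) (X.inv_mem h21)) (by decide +kernel) (by decide +kernel)
    (by decide +kernel) (by decide +kernel)

theorem top_of_M_21 (hM : eM2 ∈ X) (h21 : dg l21 l21_ne ∈ X) : X = ⊤ :=
  top_of_invol X hH (dg l21 l21_ne * eM2 * (dg l21 l21_ne)⁻¹)
    (X.mul_mem (X.mul_mem h21 hM) (X.inv_mem h21)) (by decide +kernel) (by decide +kernel)
    (by decide +kernel) (by decide +kernel)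

/-- If all involutions of `X` lie in `Y` then so does `X`. -/
theorem le_of_invol (Y : Subgroup SL2)
    (hN : ∀ x : SL2, x * ad 1 one_ne_zero * x⁻¹ ∈ Y → x * ad omega omega_ne * x⁻¹ ∈ Y → x ∈ Y)
    (hI : ∀ s ∈ X, s * s = 1 → s ∈ Y) : X ≤ Y := by
  intro x hx
  have key : ∀ s : SL2, s ∈ Mon 3 → s * s = 1 → x * s * x⁻¹ ∈ Y := fun s hs h2 =>
    hI _ (X.mul_mem (X.mul_mem hx (hH hs)) (X.inv_mem hx)) (by
      calc x * s * x⁻¹ * (x * s * x⁻¹) = x * (s * s) * x⁻¹ := by group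
        _ = 1 := by rw [h2]; group)
  exact hN x (key _ (ad_mem_Mon _ (one_pow 3)) (by decide +kernel))
    (key _ (ad_mem_Mon _ omega_cube) (by decide +kernel))

/-- The classification. -/
theorem classify : X = Mon 3 ∨ X = Mon 9 ∨ X = Mon 21 ∨ X = Mon 63 ∨ X = KK ∨ X = M2 ∨ X = ⊤ := by
  have hC := invol_cases X hH
  by_cases htop : X = ⊤
  · exact Or.inr (Or.inr (Or.inr (Or.inr (Or.inr (Or.inr htop)))))
  by_cases hK : up 1 ∈ X
  · have h9 : dg l9 l9_ne ∉ X := fun h => htop (top_of_K_9 X hH hK h)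
    have h21 : dg l21 l21_ne ∉ X := fun h => htop (top_of_K_21 X hH hK h)
    refine Or.inr (Or.inr (Or.inr (Or.inr (Or.inl (le_antisymm ?_ (gen_KK X hH hK))))))
    refine le_of_invol X hH KK N_KK fun s hs h2 => ?_
    rcases hC s hs h2 with h | ⟨_, h⟩ | ⟨_, h⟩ | ⟨_, h⟩ | ⟨h, _⟩ | ⟨_, h⟩ | h
    · exact Mon3_le_KK h
    · exact absurd h h9
    · exact absurd h h21
    · exact absurd (of_zeta X hH h).1 h9
    · exact h
    · exact absurd (gen_M2 X hH h (Mon9_le_M2 (dg_mem_Mon l9_ne (by decide +kernel)))) h9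
    · exact absurd h htop
  by_cases hM : eM2 ∈ X
  · have h21 : dg l21 l21_ne ∉ X := fun h => htop (top_of_M_21 X hH hM h)
    refine Or.inr (Or.inr (Or.inr (Or.inr (Or.inr (Or.inl (le_antisymm ?_ (gen_M2 X hH hM)))))))
    refine le_of_invol X hH M2 N_M2 fun s hs h2 => ?_
    rcases hC s hs h2 with h | ⟨h, _⟩ | ⟨_, h⟩ | ⟨_, h⟩ | ⟨_, h⟩ | ⟨h, _⟩ | h
    · exact Mon9_le_M2 (Mon_le (by norm_num) h)
    · exact Mon9_le_M2 h
    · exact absurd h h21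
    · exact absurd (of_zeta X hH h).2 h21
    · exact absurd h hK
    · exact h
    · exact absurd h htop
  by_cases h9 : dg l9 l9_ne ∈ X
  · by_cases h21 : dg l21 l21_ne ∈ X
    · refine Or.inr (Or.inr (Or.inr (Or.inl
        (le_antisymm ?_ (Mon63_le X hH (zeta_of X hH h9 h21))))))
      refine le_of_invol X hH (Mon 63) (N_Mon 63) fun s hs h2 => ?_
      rcases hC s hs h2 with h | ⟨h, _⟩ | ⟨h, _⟩ | ⟨h, _⟩ | ⟨_, h⟩ | ⟨_, h⟩ | h
      · exact Mon_le (by norm_num) h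
      · exact Mon_le (by norm_num) h
      · exact Mon_le (by norm_num) h
      · exact h
      · exact absurd h hK
      · exact absurd h hM
      · exact absurd h htop
    · refine Or.inr (Or.inl (le_antisymm ?_ (Mon9_le X hH h9)))
      refine le_of_invol X hH (Mon 9) (N_Mon 9) fun s hs h2 => ?_
      rcases hC s hs h2 with h | ⟨h, _⟩ | ⟨_, h⟩ | ⟨_, h⟩ | ⟨_, h⟩ | ⟨_, h⟩ | h
      · exact Mon_le (by norm_num) h
      · exact h
      · exact absurd h h21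
      · exact absurd (of_zeta X hH h).2 h21
      · exact absurd h hK
      · exact absurd h hM
      · exact absurd h htop
  · by_cases h21 : dg l21 l21_ne ∈ X
    · refine Or.inr (Or.inr (Or.inl (le_antisymm ?_ (Mon21_le X hH h21))))
      refine le_of_invol X hH (Mon 21) (N_Mon 21) fun s hs h2 => ?_
      rcases hC s hs h2 with h | ⟨_, h⟩ | ⟨h, _⟩ | ⟨_, h⟩ | ⟨_, h⟩ | ⟨_, h⟩ | h
      · exact Mon_le (by norm_num) h
      · exact absurd h h9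
      · exact h
      · exact absurd (of_zeta X hH h).1 h9
      · exact absurd h hK
      · exact absurd h hM
      · exact absurd h htop
    · refine Or.inl (le_antisymm ?_ hH)
      refine le_of_invol X hH (Mon 3) (N_Mon 3) fun s hs h2 => ?_
      rcases hC s hs h2 with h | ⟨_, h⟩ | ⟨_, h⟩ | ⟨_, h⟩ | ⟨_, h⟩ | ⟨_, h⟩ | h
      · exact h
      · exact absurd h h9
      · exact absurd h h21
      · exact absurd (of_zeta X hH h).1 h9
      · exact absurd h hK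
      · exact absurd h hM
      · exact absurd h htop

end

end SL2

end Vale.Agent.P183.Inv
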