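import Vale.Agent.P183.GSet

/-!
# Upper intervals of subgroup lattices as congruence lattices

A restatement of `exists_alg_Ici` with the subtype `{K // H ≤ K}` on the left.
-/

namespace Vale.Agent.P183

theorem con_orderIso (G : Type) [Group G] [Finite G] (H : Subgroup G) :
    ∃ A : FinAlg, Nonempty ({K : Subgroup G // H ≤ K} ≃o Con A) := by
  obtain ⟨A, ⟨e⟩⟩ := exists_alg_Ici H
  exact ⟨A, ⟨e.symm⟩⟩

end Vale.Agent.P183
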