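import Vale.Agent.P183.Inv.Classify
import Vale.Agent.P183.Inv.ConIci
import Vale.Agent.P183.N7

/-!
# The interval above the monomial group of order six is the lattice `N7`
-/

namespace Vale.Agent.P183.Inv

namespace SL2

open F64 Vale.Agent.P183

/-- The seven subgroups. -/
def sub : N7 → Subgroup SL2
  | .bot => Mon 3
  | .j1 => Mon 21
  | .j2 => Mon 9
  | .k => KK
  | .m1 => Mon 63
  | .m2 => M2
  | .top => ⊤

instance decSub : (i : N7) → (x : SL2) → Decidable (x ∈ sub i)
  | .bot, x => inferInstanceAs (Decidable (x ∈ Mon 3))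
  | .j1, x => inferInstanceAs (Decidable (x ∈ Mon 21))
  | .j2, x => inferInstanceAs (Decidable (x ∈ Mon 9))
  | .k, x => inferInstanceAs (Decidable (x ∈ KK))
  | .m1, x => inferInstanceAs (Decidable (x ∈ Mon 63))
  | .m2, x => inferInstanceAs (Decidable (x ∈ M2))
  | .top, x => isTrue (Subgroup.mem_top x)

/-- For each of the seven subgroups an element lying in no smaller or incomparable one. -/
def wit : N7 → SL2
  | .bot => 1
  | .j1 => dg l21 l21_ne
  | .j2 => dg l9 l9_ne
  | .k => up 1
  | .m1 => dg zeta zeta_ne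
  | .m2 => eM2
  | .top => up zeta

theorem wit_mem : ∀ i : N7, wit i ∈ sub i := by decide +kernel

theorem wit_spec : ∀ i j : N7, wit i ∈ sub j → i ≤ j := by decide +kernel

theorem sub_mono : ∀ i j : N7, i ≤ j → sub i ≤ sub j
  | .bot, .bot, _ => le_refl _
  | .bot, .j1, _ => Mon_le (by norm_num)
  | .bot, .j2, _ => Mon_le (by norm_num)
  | .bot, .k, _ => Mon3_le_KK
  | .bot, .m1, _ => Mon_le (by norm_num)
  | .bot, .m2, _ => (Mon_le (by norm_num)).trans Mon9_le_M2
  | _, .top, _ => le_top
  | .j1, .j1, _ => le_refl _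
  | .j1, .m1, _ => Mon_le (by norm_num)
  | .j2, .j2, _ => le_refl _
  | .j2, .m1, _ => Mon_le (by norm_num)
  | .j2, .m2, _ => Mon9_le_M2
  | .k, .k, _ => le_refl _
  | .m1, .m1, _ => le_refl _
  | .m2, .m2, _ => le_refl _
  | .j1, .bot, h => absurd h (by decide)
  | .j1, .j2, h => absurd h (by decide)
  | .j1, .k, h => absurd h (by decide)
  | .j1, .m2, h => absurd h (by decide)
  | .j2, .bot, h => absurd h (by decide)
  | .j2, .j1, h => absurd h (by decide)
  | .j2, .k, h => absurd h (by decide)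
  | .k, .bot, h => absurd h (by decide)
  | .k, .j1, h => absurd h (by decide)
  | .k, .j2, h => absurd h (by decide)
  | .k, .m1, h => absurd h (by decide)
  | .k, .m2, h => absurd h (by decide)
  | .m1, .bot, h => absurd h (by decide)
  | .m1, .j1, h => absurd h (by decide)
  | .m1, .j2, h => absurd h (by decide)
  | .m1, .k, h => absurd h (by decide)
  | .m1, .m2, h => absurd h (by decide)
  | .m2, .bot, h => absurd h (by decide)
  | .m2, .j1, h => absurd h (by decide)
  | .m2, .j2, h => absurd h (by decide)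
  | .m2, .k, h => absurd h (by decide)
  | .m2, .m1, h => absurd h (by decide)
  | .top, .bot, h => absurd h (by decide)
  | .top, .j1, h => absurd h (by decide)
  | .top, .j2, h => absurd h (by decide)
  | .top, .k, h => absurd h (by decide)
  | .top, .m1, h => absurd h (by decide)
  | .top, .m2, h => absurd h (by decide)

theorem sub_le_iff (i j : N7) : sub i ≤ sub j ↔ i ≤ j :=
  ⟨fun h => wit_spec i j (h (wit_mem i)), sub_mono i j⟩

theorem sub_ge (i : N7) : Mon 3 ≤ sub i := sub_mono .bot i (by cases i <;> decide)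

theorem sub_surj (X : Subgroup SL2) (hX : Mon 3 ≤ X) : ∃ i, sub i = X := by
  rcases classify X hX with h | h | h | h | h | h | h
  · exact ⟨.bot, h.symm⟩
  · exact ⟨.j2, h.symm⟩
  · exact ⟨.j1, h.symm⟩
  · exact ⟨.m1, h.symm⟩
  · exact ⟨.k, h.symm⟩
  · exact ⟨.m2, h.symm⟩
  · exact ⟨.top, h.symm⟩

/-- The interval above the monomial group of order six. -/
noncomputable def intervalIso : N7 ≃o {K : Subgroup SL2 // Mon 3 ≤ K} :=
  RelIso.ofSurjective
    (OrderEmbedding.ofMapLEIff (fun i => (⟨sub i, sub_ge i⟩ : {K : Subgroup SL2 // Mon 3 ≤ K}))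
      (fun i j => sub_le_iff i j))
    (fun X => let ⟨i, hi⟩ := sub_surj X.1 X.2; ⟨i, Subtype.ext hi⟩)

theorem representable_N7 : Representable N7 := by
  obtain ⟨A, ⟨e⟩⟩ := con_orderIso SL2 (Mon 3)
  exact ⟨A, ⟨intervalIso.trans e⟩⟩

end SL2

end Vale.Agent.P183.Inv
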