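import Vale.Agent.P183.Inv.Subs

/-!
# Generation of the monomial groups, of the group over the field with four elements and of
the whole group
-/

namespace Vale.Agent.P183.Inv

namespace SL2

open F64

theorem gen_Mon (n : ℕ) (g : F64) (hg : g ≠ 0) (hgen : ∀ t : F64, t ^ n = 1 → ∃ k : ℕ, t = g ^ k)
    (X : Subgroup SL2) (hH : Mon 3 ≤ X) (h : dg g hg ∈ X) : Mon n ≤ X := by
  have hd : ∀ (t : F64) (ht : t ≠ 0), t ^ n = 1 → dg t ht ∈ X := fun t ht h1 => by
    obtain ⟨k, hk⟩ := hgen t h1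
    rw [dg_congr hk ht (pow_ne_zero k hg), ← dg_pow]
    exact X.pow_mem h k
  rintro x (⟨hb, hc, ha⟩ | ⟨ha, hd', hb⟩)
  · obtain ⟨h0, hx⟩ := eq_dg x hb hc
    rw [hx]; exact hd _ h0 ha
  · obtain ⟨h0, hx⟩ := eq_ad x ha hd'
    rw [hx, ← dg_mul_ad_one]
    exact X.mul_mem (hd _ h0 hb) (hH (ad_mem_Mon _ (one_pow 3)))

theorem bruhat1 (x : SL2) (hc : x.c ≠ 0) :
    x = up ((x.a + 1) / x.c) * lo x.c * up ((x.d + 1) / x.c) := by
  have hdet := x.det
  have hp : (x.a + 1) / x.c * x.c = x.a + 1 := div_mul_cancel₀ _ hc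
  have hq : (x.d + 1) / x.c * x.c = x.d + 1 := div_mul_cancel₀ _ hc
  generalize (x.a + 1) / x.c = p at hp
  generalize (x.d + 1) / x.c = q at hq
  refine ext' ?_ ?_ ?_ ?_
  · simp only [mul_a, mul_b, up, lo]
    linear_combination (-1 : F64) * hp - two_eq_zero
  · simp only [mul_a, mul_b, up, lo]
    apply mul_right_cancel₀ hc
    linear_combination (-(1 + p * x.c)) * hq - (x.d + 2) * hp - hdet -
      (x.a + x.d + 2 - x.b * x.c) * two_eq_zero
  · simp only [mul_c, mul_d, up, lo]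
    ring
  · simp only [mul_c, mul_d, up, lo]
    linear_combination (-1 : F64) * hq - two_eq_zero

theorem bruhat0 (x : SL2) (hc : x.c = 0) : ∃ ha : x.a ≠ 0, x = dg x.a ha * up (x.b / x.a) := by
  have hdet := x.det
  rw [hc, mul_zero, add_zero] at hdet
  have ha : x.a ≠ 0 := fun h => by rw [h, zero_mul] at hdet; exact zero_ne_one hdet
  refine ⟨ha, ext' ?_ ?_ ?_ ?_⟩
  · simp [dg, up]
  · simp only [mul_b, dg, up]
    field_simp
    ring
  · simp [dg, up, hc]
  · simp only [mul_d, dg, up]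
    rw [zero_mul, zero_add, mul_one]
    exact eq_inv_of_mul_eq_one_right hdet

theorem bruhat_mem (X : Subgroup SL2) (S : F64 → Prop) (hu : ∀ t, S t → up t ∈ X)
    (hl : ∀ t, S t → lo t ∈ X) (hd : ∀ (t : F64) (ht : t ≠ 0), S t → dg t ht ∈ X)
    (hdiv : ∀ s t, S s → S t → S (s / t)) (hadd : ∀ s, S s → S (s + 1))
    (x : SL2) (ha : S x.a) (hb : S x.b) (hc : S x.c) (hd' : S x.d) : x ∈ X := by
  by_cases h : x.c = 0
  · obtain ⟨h0, hx⟩ := bruhat0 x h
    rw [hx]
    exact X.mul_mem (hd _ h0 ha) (hu _ (hdiv _ _ hb ha))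
  · rw [bruhat1 x h]
    exact X.mul_mem (X.mul_mem (hu _ (hdiv _ _ (hadd _ ha) hc)) (hl _ hc))
      (hu _ (hdiv _ _ (hadd _ hd') hc))

theorem up_zero : up 0 = 1 := rfl

theorem gen_top (X : Subgroup SL2) (hH : Mon 63 ≤ X) (z : SL2) (hz : z ∈ X) (hc : z.c = 0)
    (hb : z.b ≠ 0) : X = ⊤ := by
  have hd : ∀ (t : F64) (ht : t ≠ 0), dg t ht ∈ X := fun t ht => hH (dg_mem_Mon ht (pow63 t ht))
  have had : ad 1 one_ne_zero ∈ X := hH (ad_mem_Mon _ (one_pow 63))
  obtain ⟨ha, hzz⟩ := bruhat0 z hc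
  have h0 : up (z.b / z.a) ∈ X := by
    have : up (z.b / z.a) = (dg z.a ha)⁻¹ * z := by
      rw [eq_inv_mul_iff_mul_eq]; exact hzz.symm
    rw [this]; exact X.mul_mem (X.inv_mem (hd _ ha)) hz
  have ht0 : z.b / z.a ≠ 0 := div_ne_zero hb ha
  have hu : ∀ t, up t ∈ X := fun t => by
    by_cases ht : t = 0
    · rw [ht, up_zero]; exact X.one_mem
    · have hs : t / (z.b / z.a) ≠ 0 := div_ne_zero ht ht0
      have := X.mul_mem (X.mul_mem (hd _ (sqrt_ne hs)) h0) (X.inv_mem (hd _ (sqrt_ne hs)))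
      rw [dg_conj_up, sqrt_mul_self, div_mul_cancel₀ _ ht0] at this
      exact this
  have hl : ∀ t, lo t ∈ X := fun t => by
    rw [← ad_conj_up]; exact X.mul_mem (X.mul_mem had (hu t)) had
  rw [eq_top_iff]
  intro x _
  exact bruhat_mem X (fun _ => True) (fun t _ => hu t) (fun t _ => hl t) (fun t ht _ => hd t ht)
    (fun _ _ _ _ => trivial) (fun _ _ => trivial) x trivial trivial trivial trivial

theorem four_cases : ∀ t : F64, t ^ 4 = t → t = 0 ∨ t = 1 ∨ t = omega ∨ t = omega + 1 := by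
  decide +kernel

theorem gen_KK (X : Subgroup SL2) (hH : Mon 3 ≤ X) (h : up 1 ∈ X) : KK ≤ X := by
  have had : ad 1 one_ne_zero ∈ X := hH (ad_mem_Mon _ (one_pow 3))
  have hd : ∀ (t : F64) (ht : t ≠ 0), t ^ 4 = t → dg t ht ∈ X := fun t ht h4 => by
    refine hH (dg_mem_Mon ht ?_)
    have : t * t ^ 3 = t * 1 := by rw [mul_one, ← pow_succ']; exact h4
    exact mul_left_cancel₀ ht this
  have ho1 : omega + 1 ≠ 0 := by decide +kernel
  have hu : ∀ t : F64, t ^ 4 = t → up t ∈ X := fun t h4 => by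
    rcases four_cases t h4 with rfl | rfl | rfl | rfl
    · rw [up_zero]; exact X.one_mem
    · exact h
    · have h1 := hd (omega + 1) ho1 (by decide +kernel)
      have := X.mul_mem (X.mul_mem h1 h) (X.inv_mem h1)
      rw [dg_conj_up] at this
      have e : (omega + 1) * (omega + 1) * 1 = omega := by decide +kernel
      rwa [e] at this
    · have h1 := hd omega omega_ne omega_pow4
      have := X.mul_mem (X.mul_mem h1 h) (X.inv_mem h1)
      rw [dg_conj_up] at this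
      have e : omega * omega * 1 = omega + 1 := by decide +kernel
      rwa [e] at this
  have hl : ∀ t : F64, t ^ 4 = t → lo t ∈ X := fun t h4 => by
    rw [← ad_conj_up]; exact X.mul_mem (X.mul_mem had (hu t h4)) had
  rintro x ⟨ha, hb, hc, hd'⟩
  exact bruhat_mem X (fun t => t ^ 4 = t) hu hl hd
    (fun s t hs ht => by rw [div_pow, hs, ht])
    (fun s hs => by rw [add_pow4, hs, one_pow]) x ha hb hc hd'

end SL2

end Vale.Agent.P183.Inv
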