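import Vale.Agent.P183.Inv.Sound
import Vale.Agent.P183.Inv.Gen

/-!
# The group `M2` is generated by the monomial group of order six and one involution
-/

namespace Vale.Agent.P183.Inv

namespace SL2

open F64

theorem gen9 : ∀ t : F64, t ^ 9 = 1 → ∃ k : Fin 9, t = l9 ^ (k : ℕ) := by decide +kernel

theorem dg_l9_eq : dg l9 l9_ne = evalW eM2 16 1699 1 := by decide +kernel

/-- Representatives of the double cosets of the torus of order nine. -/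
def reps : Fin 6 → SL2 :=
  ![⟨⟨61, by norm_num⟩, ⟨24, by norm_num⟩, ⟨24, by norm_num⟩, ⟨37, by norm_num⟩, by decide +kernel⟩,
    ⟨⟨24, by norm_num⟩, ⟨37, by norm_num⟩, ⟨61, by norm_num⟩, ⟨24, by norm_num⟩, by decide +kernel⟩,
    ⟨⟨35, by norm_num⟩, ⟨46, by norm_num⟩, ⟨33, by norm_num⟩, ⟨34, by norm_num⟩, by decide +kernel⟩,
    ⟨⟨33, by norm_num⟩, ⟨34, by norm_num⟩, ⟨35, by norm_num⟩, ⟨46, by norm_num⟩, by decide +kernel⟩,
    ⟨⟨12, by norm_num⟩, ⟨23, by norm_num⟩, ⟨23, by norm_num⟩, ⟨2, by norm_num⟩, by decide +kernel⟩,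
    ⟨⟨23, by norm_num⟩, ⟨2, by norm_num⟩, ⟨12, by norm_num⟩, ⟨23, by norm_num⟩, by decide +kernel⟩]

/-- The words for the representatives. -/
def repW : Fin 6 → Nat := ![44, 41, 17, 20, 4, 1]

theorem reps_eq : ∀ j, reps j = evalW eM2 16 (repW j) 1 := by decide +kernel

theorem reps_M2 : ∀ j, (reps j).d = (reps j).a ^ 8 ∧ (reps j).c = (reps j).b ^ 8 := by
  decide +kernel

theorem cover : ∀ a b : F64, a = 0 ∨ b = 0 ∨ a ^ 9 + b ^ 9 ≠ 1 ∨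
    ∃ j : Fin 6, (∃ p : Fin 9, a = l9 ^ (p : ℕ) * (reps j).a) ∧
      ∃ q : Fin 9, b = l9 ^ (q : ℕ) * (reps j).b := by decide +kernel

theorem solve : ∀ p q : Fin 9, ∃ i k : Fin 9, l9 ^ (i : ℕ) * l9 ^ (k : ℕ) = l9 ^ (p : ℕ) ∧
    l9 ^ (i : ℕ) * (l9 ^ (k : ℕ))⁻¹ = l9 ^ (q : ℕ) := by decide +kernel

theorem gen_M2 (X : Subgroup SL2) (hH : Mon 3 ≤ X) (h : eM2 ∈ X) : M2 ≤ X := by
  have hw : ∀ W, evalW eM2 16 W 1 ∈ X := fun W => evalW_mem X hH _ h 16 W 1 X.one_mem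
  have h9 : dg l9 l9_ne ∈ X := dg_l9_eq ▸ hw _
  have hM9 : Mon 9 ≤ X := gen_Mon 9 l9 l9_ne
    (fun t ht => let ⟨k, hk⟩ := gen9 t ht; ⟨k, hk⟩) X hH h9
  have hd : ∀ i : ℕ, dg (l9 ^ i) (pow_ne_zero i l9_ne) ∈ X := fun i => by
    rw [← dg_pow]; exact X.pow_mem h9 i
  intro x hx
  obtain ⟨hxd, hxc⟩ := mem_M2.1 hx
  have hdet := x.det
  rw [hxd, hxc] at hdet
  have hdet' : x.a ^ 9 + x.b ^ 9 = 1 := by rw [← hdet]; ring
  rcases cover x.a x.b with ha | hb | hne | ⟨j, ⟨p, hp⟩, q, hq⟩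
  · apply hM9
    refine Or.inr ⟨ha, by rw [hxd, ha]; simp, ?_⟩
    rw [ha] at hdet'
    simpa using hdet'
  · apply hM9
    refine Or.inl ⟨hb, by rw [hxc, hb]; simp, ?_⟩
    rw [hb] at hdet'
    simpa using hdet'
  · exact absurd hdet' hne
  · obtain ⟨i, k, h1, h2⟩ := solve p q
    have hy : dg (l9 ^ (i : ℕ)) (pow_ne_zero _ l9_ne) * reps j *
        dg (l9 ^ (k : ℕ)) (pow_ne_zero _ l9_ne) ∈ X :=
      X.mul_mem (X.mul_mem (hd _) (reps_eq j ▸ hw _)) (hd _)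
    have hyM : dg (l9 ^ (i : ℕ)) (pow_ne_zero _ l9_ne) * reps j *
        dg (l9 ^ (k : ℕ)) (pow_ne_zero _ l9_ne) ∈ M2 := by
      have h99 : l9 ^ 9 = 1 := by decide +kernel
      have hdm : ∀ i : ℕ, dg (l9 ^ i) (pow_ne_zero i l9_ne) ∈ M2 := fun i =>
        Mon9_le_M2 (dg_mem_Mon _ (by rw [← pow_mul, mul_comm, pow_mul, h99, one_pow]))
      exact M2.mul_mem (M2.mul_mem (hdm _) (reps_M2 j)) (hdm _)
    have hya : x.a = (dg (l9 ^ (i : ℕ)) (pow_ne_zero _ l9_ne) * reps j *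
        dg (l9 ^ (k : ℕ)) (pow_ne_zero _ l9_ne)).a := by
      simp only [mul_a, mul_b, dg, mul_zero, zero_mul, add_zero]
      rw [hp, ← h1]; ring
    have hyb : x.b = (dg (l9 ^ (i : ℕ)) (pow_ne_zero _ l9_ne) * reps j *
        dg (l9 ^ (k : ℕ)) (pow_ne_zero _ l9_ne)).b := by
      simp only [mul_a, mul_b, dg, mul_zero, zero_mul, add_zero, zero_add]
      rw [hq, ← h2]; ring
    obtain ⟨hyd, hyc⟩ := mem_M2.1 hyM
    have : x = dg (l9 ^ (i : ℕ)) (pow_ne_zero _ l9_ne) * reps j *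
        dg (l9 ^ (k : ℕ)) (pow_ne_zero _ l9_ne) :=
      ext' hya hyb (by rw [hxc, hyc, hyb]) (by rw [hxd, hyd, hya])
    rw [this]; exact hy

end SL2

end Vale.Agent.P183.Inv
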