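import Vale.Agent.P183.Inv.F64

/-!
# The group of two by two matrices of determinant one over the field with 64 elements
-/

namespace Vale.Agent.P183.Inv

/-- Matrices `[[a, b], [c, d]]` of determinant one (the characteristic is two). -/
structure SL2 where
  a : F64
  b : F64
  c : F64
  d : F64
  det : a * d + b * c = 1

namespace SL2

open F64

theorem ext' {x y : SL2} (ha : x.a = y.a) (hb : x.b = y.b) (hc : x.c = y.c) (hd : x.d = y.d) :
    x = y := by
  cases x; cases y; cases ha; cases hb; cases hc; cases hd; rfl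

theorem ext_iff' {x y : SL2} : x = y ↔ x.a = y.a ∧ x.b = y.b ∧ x.c = y.c ∧ x.d = y.d :=
  ⟨fun h => h ▸ ⟨rfl, rfl, rfl, rfl⟩, fun h => ext' h.1 h.2.1 h.2.2.1 h.2.2.2⟩

instance : DecidableEq SL2 := fun _ _ => decidable_of_iff _ ext_iff'.symm

instance : Mul SL2 := ⟨fun x y =>
  ⟨x.a * y.a + x.b * y.c, x.a * y.b + x.b * y.d, x.c * y.a + x.d * y.c, x.c * y.b + x.d * y.d, by
    linear_combination (y.a * y.d + y.b * y.c) * x.det + y.det +
      (x.a * y.a * x.c * y.b + x.b * y.c * x.d * y.d) * two_eq_zero⟩⟩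

instance : One SL2 := ⟨⟨1, 0, 0, 1, by ring⟩⟩

instance : Inv SL2 := ⟨fun x => ⟨x.d, x.b, x.c, x.a, by linear_combination x.det⟩⟩

@[simp] theorem mul_a (x y : SL2) : (x * y).a = x.a * y.a + x.b * y.c := rfl
@[simp] theorem mul_b (x y : SL2) : (x * y).b = x.a * y.b + x.b * y.d := rfl
@[simp] theorem mul_c (x y : SL2) : (x * y).c = x.c * y.a + x.d * y.c := rfl
@[simp] theorem mul_d (x y : SL2) : (x * y).d = x.c * y.b + x.d * y.d := rfl
@[simp] theorem one_a : (1 : SL2).a = 1 := rfl
@[simp] theorem one_b : (1 : SL2).b = 0 := rfl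
@[simp] theorem one_c : (1 : SL2).c = 0 := rfl
@[simp] theorem one_d : (1 : SL2).d = 1 := rfl
@[simp] theorem inv_a (x : SL2) : (x⁻¹).a = x.d := rfl
@[simp] theorem inv_b (x : SL2) : (x⁻¹).b = x.b := rfl
@[simp] theorem inv_c (x : SL2) : (x⁻¹).c = x.c := rfl
@[simp] theorem inv_d (x : SL2) : (x⁻¹).d = x.a := rfl

instance : Group SL2 where
  mul_assoc := fun x y z => ext' (by simp only [mul_a, mul_b, mul_c, mul_d]; ring)
    (by simp only [mul_a, mul_b, mul_c, mul_d]; ring)
    (by simp only [mul_a, mul_b, mul_c, mul_d]; ring)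
    (by simp only [mul_a, mul_b, mul_c, mul_d]; ring)
  one_mul := fun x => ext' (by simp) (by simp) (by simp) (by simp)
  mul_one := fun x => ext' (by simp) (by simp) (by simp) (by simp)
  inv_mul_cancel := fun x => ext'
    (by simp only [mul_a, inv_a, inv_b, one_a]; linear_combination x.det)
    (by simp only [mul_b, inv_a, inv_b, one_b]; linear_combination (x.b * x.d) * two_eq_zero)
    (by simp only [mul_c, inv_c, inv_d, one_c]; linear_combination (x.a * x.c) * two_eq_zero)
    (by simp only [mul_d, inv_c, inv_d, one_d]; linear_combination x.det)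

instance : Finite SL2 :=
  Finite.of_injective (fun x : SL2 => (x.a, x.b, x.c, x.d)) (fun x y h => by
    simp only [Prod.mk.injEq] at h
    exact ext' h.1 h.2.1 h.2.2.1 h.2.2.2)

/-- The diagonal matrix with entries `t` and its inverse. -/
def dg (t : F64) (ht : t ≠ 0) : SL2 := ⟨t, 0, 0, t⁻¹, by rw [mul_inv_cancel₀ ht]; ring⟩

/-- The upper unitriangular matrix. -/
def up (t : F64) : SL2 := ⟨1, t, 0, 1, by ring⟩

/-- The lower unitriangular matrix. -/
def lo (t : F64) : SL2 := ⟨1, 0, t, 1, by ring⟩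

/-- The antidiagonal matrix with entries `t` and its inverse. -/
def ad (t : F64) (ht : t ≠ 0) : SL2 := ⟨0, t, t⁻¹, 0, by rw [mul_inv_cancel₀ ht]; ring⟩

end SL2

end Vale.Agent.P183.Inv
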