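import Vale.Agent.P183.Inv.Check

/-!
# What the checked data say about subgroups containing an involution
-/

namespace Vale.Agent.P183.Inv

namespace SL2

open F64

theorem hh_mem : ∀ k, hh k ∈ Mon 3
  | 0 => (Mon 3).one_mem
  | 1 => Or.inl ⟨rfl, rfl, by decide +kernel⟩
  | 2 => Or.inl ⟨rfl, rfl, by decide +kernel⟩
  | 3 => Or.inr ⟨rfl, rfl, by decide +kernel⟩
  | 4 => Or.inr ⟨rfl, rfl, by decide +kernel⟩
  | _ + 5 => Or.inr ⟨rfl, rfl, show omega2 ^ 3 = 1 by decide +kernel⟩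

theorem evalW_mem (X : Subgroup SL2) (hH : Mon 3 ≤ X) (t : SL2) (ht : t ∈ X) :
    ∀ (n W : Nat) (acc : SL2), acc ∈ X → evalW t n W acc ∈ X
  | 0, _, _, h => h
  | n + 1, W, acc, h => by
    unfold evalW
    split
    · exact h
    · exact evalW_mem X hH t ht n _ _ (X.mul_mem (X.mul_mem h (hH (hh_mem _))) ht)

theorem p4_eq (x : F64) : p4 x = x ^ 4 := by unfold p4; ring
theorem p8_eq (x : F64) : p8 x = x ^ 8 := by unfold p8; rw [p4_eq]; ring
theorem p9_eq (x : F64) : p9 x = x ^ 9 := by unfold p9; rw [p8_eq]; ring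
theorem p21_eq (x : F64) : p21 x = x ^ 21 := by unfold p21; simp only [p4_eq]; ring

theorem ofNat_val (x : F64) : F64.ofNat x.val = x := F64.ext' (Nat.mod_eq_of_lt x.lt)

theorem check_true (b c : F64) : check b c (cert b.val c.val) = true := by
  have h := all_range2 check_all b.val c.val b.lt c.lt
  rwa [ofNat_val, ofNat_val] at h

/-- The outcome of the check, for a subgroup containing the monomial group of order six and the
involution with off diagonal entries `b` and `c`. -/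
theorem inv_cert (X : Subgroup SL2) (hH : Mon 3 ≤ X) (b c : F64) (ht : invol b c ∈ X) :
    (b = 0 ∧ c = 0) ∨ (invol b c).a = 0 ∨ (invol b c ∈ KK ∧ up 1 ∈ X) ∨
    (invol b c ∈ M2 ∧ eM2 ∈ X) ∨
    ((∃ y ∈ X, y.b = 0 ∧ y.c = 0 ∧ y.a ^ 9 ≠ 1 ∧ y.a ^ 21 ≠ 1) ∧
      (∃ z ∈ X, z.c = 0 ∧ z.b ≠ 0)) := by
  have h := check_true b c
  generalize cert b.val c.val = w at h
  have hm : ∀ W, evalW (invol b c) 16 W 1 ∈ X := fun W => evalW_mem X hH _ ht 16 W 1 X.one_mem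
  unfold check at h
  simp only at h
  split at h
  · exact Or.inr (Or.inl (of_decide_eq_true h))
  · simp only [Bool.and_eq_true, decide_eq_true_eq, p4_eq] at h
    obtain ⟨⟨⟨h1, h2⟩, h3⟩, h4⟩ := h
    exact Or.inr (Or.inr (Or.inl ⟨⟨h1, h2, h3, h1⟩, h4 ▸ hm _⟩))
  · simp only [Bool.and_eq_true, decide_eq_true_eq, p8_eq] at h
    obtain ⟨⟨h1, h2⟩, h3⟩ := h
    exact Or.inr (Or.inr (Or.inr (Or.inl ⟨⟨h1.symm, h2.symm⟩, h3 ▸ hm _⟩)))
  · simp only [Bool.and_eq_true, decide_eq_true_eq, Bool.not_eq_true', decide_eq_false_iff_not,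
      p9_eq, p21_eq] at h
    obtain ⟨⟨⟨⟨⟨h1, h2⟩, h3⟩, h4⟩, h5⟩, h6⟩ := h
    exact Or.inr (Or.inr (Or.inr (Or.inr ⟨⟨_, hm _, h1, h2, h3, h4⟩, ⟨_, hm _, h5, h6⟩⟩)))
  · simp only [Bool.and_eq_true, decide_eq_true_eq] at h
    exact Or.inl h
  · exact absurd h (by simp)

end SL2

end Vale.Agent.P183.Inv
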