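import Vale.Agent.P183.Inv.Basic

/-!
# Six subgroups of the group of matrices of determinant one over the field with 64 elements
-/

namespace Vale.Agent.P183.Inv

namespace SL2

open F64

theorem pow_eq_one_of_mul_eq_one {s t : F64} {n : ℕ} (h : s * t = 1) (hs : s ^ n = 1) :
    t ^ n = 1 := by
  have : (s * t) ^ n = 1 := by rw [h, one_pow]
  rwa [mul_pow, hs, one_mul] at this

/-- The monomial matrices whose nonzero entries are `n`-th roots of unity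
(a dihedral group of order `2 * n` when `n` divides 63). -/
def Mon (n : ℕ) : Subgroup SL2 where
  carrier := {x | (x.b = 0 ∧ x.c = 0 ∧ x.a ^ n = 1) ∨ (x.a = 0 ∧ x.d = 0 ∧ x.b ^ n = 1)}
  one_mem' := Or.inl ⟨rfl, rfl, one_pow n⟩
  mul_mem' := by
    rintro x y (⟨hb, hc, ha⟩ | ⟨ha, hd, hb⟩) (⟨hb', hc', ha'⟩ | ⟨ha', hd', hb'⟩)
    · exact Or.inl ⟨by simp [hb, hb'], by simp [hc, hc'], by simp [hb, mul_pow, ha, ha']⟩
    · exact Or.inr ⟨by simp [hb, ha'], by simp [hc, hd'], by simp [hb, mul_pow, ha, hb']⟩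
    · have hy := y.det
      rw [hb', zero_mul, add_zero] at hy
      exact Or.inr ⟨by simp [ha, hc'], by simp [hd, hb'], by
        simp [ha, mul_pow, hb, pow_eq_one_of_mul_eq_one hy ha']⟩
    · have hy := y.det
      rw [ha', zero_mul, zero_add] at hy
      exact Or.inl ⟨by simp [ha, hd'], by simp [hd, ha'], by
        simp [ha, mul_pow, hb, pow_eq_one_of_mul_eq_one hy hb']⟩
  inv_mem' := by
    rintro x (⟨hb, hc, ha⟩ | ⟨ha, hd, hb⟩)
    · have hx := x.det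
      rw [hb, zero_mul, add_zero] at hx
      exact Or.inl ⟨hb, hc, pow_eq_one_of_mul_eq_one hx ha⟩
    · exact Or.inr ⟨hd, ha, hb⟩

theorem mem_Mon {n : ℕ} {x : SL2} : x ∈ Mon n ↔
    (x.b = 0 ∧ x.c = 0 ∧ x.a ^ n = 1) ∨ (x.a = 0 ∧ x.d = 0 ∧ x.b ^ n = 1) := Iff.rfl

/-- The matrices with entries in the subfield with four elements. -/
def KK : Subgroup SL2 where
  carrier := {x | x.a ^ 4 = x.a ∧ x.b ^ 4 = x.b ∧ x.c ^ 4 = x.c ∧ x.d ^ 4 = x.d}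
  one_mem' := ⟨by simp, by simp, by simp, by simp⟩
  mul_mem' := by
    rintro x y ⟨ha, hb, hc, hd⟩ ⟨ha', hb', hc', hd'⟩
    refine ⟨?_, ?_, ?_, ?_⟩ <;>
      simp only [mul_a, mul_b, mul_c, mul_d, add_pow4, mul_pow, ha, hb, hc, hd, ha', hb', hc', hd']
  inv_mem' := by
    rintro x ⟨ha, hb, hc, hd⟩
    exact ⟨hd, hb, hc, ha⟩

theorem mem_KK {x : SL2} : x ∈ KK ↔
    x.a ^ 4 = x.a ∧ x.b ^ 4 = x.b ∧ x.c ^ 4 = x.c ∧ x.d ^ 4 = x.d := Iff.rfl

theorem pow8_pow8 (x : F64) : (x ^ 8) ^ 8 = x := by rw [← pow_mul]; exact pow64 x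

/-- The matrices `[[a, b], [b ^ 8, a ^ 8]]`: a copy of the group of matrices of determinant one
over the field with eight elements. -/
def M2 : Subgroup SL2 where
  carrier := {x | x.d = x.a ^ 8 ∧ x.c = x.b ^ 8}
  one_mem' := ⟨by simp, by simp⟩
  mul_mem' := by
    rintro x y ⟨hd, hc⟩ ⟨hd', hc'⟩
    refine ⟨?_, ?_⟩
    · simp only [mul_a, mul_d, add_pow8, mul_pow, hd, hc, hd', hc', pow8_pow8]; ring
    · simp only [mul_b, mul_c, add_pow8, mul_pow, hd, hc, hd', hc', pow8_pow8]; ring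
  inv_mem' := by
    rintro x ⟨hd, hc⟩
    exact ⟨by simp only [inv_a, inv_d, hd, pow8_pow8], hc⟩

theorem mem_M2 {x : SL2} : x ∈ M2 ↔ x.d = x.a ^ 8 ∧ x.c = x.b ^ 8 := Iff.rfl

theorem Mon_le {m n : ℕ} (h : m ∣ n) : Mon m ≤ Mon n := by
  obtain ⟨k, rfl⟩ := h
  rintro x (⟨hb, hc, ha⟩ | ⟨ha, hd, hb⟩)
  · exact Or.inl ⟨hb, hc, by rw [pow_mul, ha, one_pow]⟩
  · exact Or.inr ⟨ha, hd, by rw [pow_mul, hb, one_pow]⟩

theorem Mon3_le_KK : Mon 3 ≤ KK := by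
  have key : ∀ t : F64, t ^ 3 = 1 → t ^ 4 = t := fun t h => by rw [pow_succ, h, one_mul]
  rintro x (⟨hb, hc, ha⟩ | ⟨ha, hd, hb⟩)
  · have hx := x.det
    rw [hb, zero_mul, add_zero] at hx
    exact ⟨key _ ha, by simp [hb], by simp [hc], key _ (pow_eq_one_of_mul_eq_one hx ha)⟩
  · have hx := x.det
    rw [ha, zero_mul, zero_add] at hx
    exact ⟨by simp [ha], key _ hb, key _ (pow_eq_one_of_mul_eq_one hx hb), by simp [hd]⟩

theorem Mon9_le_M2 : Mon 9 ≤ M2 := by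
  have key : ∀ s t : F64, s * t = 1 → s ^ 9 = 1 → t = s ^ 8 := fun s t h h9 => by
    calc t = s ^ 9 * t := by rw [h9, one_mul]
      _ = s ^ 8 * (s * t) := by ring
      _ = s ^ 8 := by rw [h, mul_one]
  rintro x (⟨hb, hc, ha⟩ | ⟨ha, hd, hb⟩)
  · have hx := x.det
    rw [hb, zero_mul, add_zero] at hx
    exact ⟨key _ _ hx ha, by simp [hb, hc]⟩
  · have hx := x.det
    rw [ha, zero_mul, zero_add] at hx
    exact ⟨by simp [ha, hd], key _ _ hx hb⟩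

theorem dg_mem_Mon {n : ℕ} {t : F64} (ht : t ≠ 0) (h : t ^ n = 1) : dg t ht ∈ Mon n :=
  Or.inl ⟨rfl, rfl, h⟩

theorem ad_mem_Mon {n : ℕ} {t : F64} (ht : t ≠ 0) (h : t ^ n = 1) : ad t ht ∈ Mon n :=
  Or.inr ⟨rfl, rfl, h⟩

end SL2

end Vale.Agent.P183.Inv
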